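import Vale.Agent.P030.H686.Cusp1
import Vale.Agent.P030.H265.Flat
import Vale.Agent.P030.H639.N8b

/-!
# P030, route N: cusp `c1` in the `S`-plane, over helper265's flat matrix (helper686)

`frm (Pz X z) BF0 = (1 + T • N1 y) * D1 y`, `y = 1 - 2 z`, `T = TY 1 y`, on the whole overlap of the
upper cell (and of its mirror) with the disc `|y| < 1`; zero patterns in both directions.
-/

open Matrix
open scoped ComplexConjugate

namespace Vale.Agent.P030.H686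

open Vale.Agent.P030.T Vale.Agent.P030.H462 Vale.Agent.P030.AR Vale.Agent.P030.H152
open Vale.Agent.P030.H265 Vale.Agent.P030.H580 Vale.Agent.P030.H639

noncomputable section

/-- the constants of `F0` in the rows `e, a, c, d, h, d+g, A0/π, A3/π` -/
def BF0 : Matrix (Fin 8) (Fin 8) ℂ :=
  !![1, 0, 0, 0, 0, 0, 0, 0;
     0, 1, -1, Complex.I * pc - l2 / 2, -(l2 / 2), l2 / 2, 0, 0;
     0, 0, 1, -(Complex.I * pc) + l2 / 2, l2 / 2, -(l2 / 2), 0, 0;
     0, 0, 0, 1, 0, 0, 0, 0;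
     0, 0, 0, 0, 1, -1, 0, 0;
     0, 0, 0, 0, 0, 1, 3 * Complex.I / 2, 3 / 4;
     0, 0, 0, 0, 0, 0, 2 * Complex.I, 1;
     0, 0, 0, 0, 0, 0, 0, 0]

theorem colY_eq (x : Fin 8 → ℂ) : colY x = yc x := rfl

theorem Pz_row (X : Fin 8 → ℂ → Fin 8 → ℂ) (z : ℂ) (i : Fin 8) :
    Pz X z i = yc (rowX X (yz z) i) := rfl

theorem sum_rows (B : Fin 8 → ℂ) (P : Fin 8 → Fin 8 → ℂ) :
    (fun c => ∑ i, B i * yc (P i) c) = yc (∑ i, B i • P i) := by
  have h : ∀ s : Finset (Fin 8), yc (∑ i ∈ s, B i • P i) = ∑ i ∈ s, B i • yc (P i) := by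
    intro s
    induction s using Finset.induction_on with
    | empty =>
      funext j
      fin_cases j <;> simp [yc]
    | insert a s ha ih => rw [Finset.sum_insert ha, Finset.sum_insert ha, yc_add, yc_smul, ih]
  rw [h]
  funext c
  rw [Finset.sum_apply]
  rfl

theorem frm_Pz (X : Fin 8 → ℂ → Fin 8 → ℂ) (z : ℂ) :
    frm (Pz X z) BF0 = F0 (fun i => X i (yz z)) := by
  have hp := pc_ne
  have hlt : ∀ b : Fin 8, b < 6 → frm (Pz X z) BF0 b =
      yc (∑ i, BF0 b i • rowX X (yz z) i) := by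
    intro b hb
    rw [← sum_rows]
    funext c
    rw [frm_lt hb]
    rfl
  funext b
  have hb : b = 0 ∨ b = 1 ∨ b = 2 ∨ b = 3 ∨ b = 4 ∨ b = 5 ∨ b = 6 ∨ b = 7 := by omega
  rcases hb with rfl | rfl | rfl | rfl | rfl | rfl | rfl | rfl
  · rw [hlt 0 (by decide), F0_0, Fin.sum_univ_eight]
    congr 1
    simp [BF0, rowX]
  · rw [hlt 1 (by decide), F0_1, Fin.sum_univ_eight]
    congr 1
    simp [BF0, rowX]
    module
  · rw [hlt 2 (by decide), F0_2, Fin.sum_univ_eight]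
    congr 1
    simp [BF0, rowX]
    module
  · rw [hlt 3 (by decide), F0_3, Fin.sum_univ_eight]
    congr 1
    simp [BF0, rowX]
  · rw [hlt 4 (by decide), F0_4, Fin.sum_univ_eight]
    congr 1
    simp [BF0, rowX]
    module
  · rw [hlt 5 (by decide), F0_5, Fin.sum_univ_eight]
    congr 1
    simp [BF0, rowX, smul_smul]
    match_scalars <;> field_simp
  · rw [frm_six, F0_6]
    congr 2
    simp only [kT, kF, Pz_row]
    change (2 * Complex.I * (1 / pc * X 6 (yz z) 7) + 1 * (1 / pc * X 7 (yz z) 7)) /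
      (2 * Complex.I * (1 / pc * X 6 (yz z) 6) + 1 * (1 / pc * X 7 (yz z) 6)) = _
    rw [← mul_div_mul_left _ _ hp]
    congr 1 <;> field_simp
  · rw [frm_seven, F0_7]

variable {X : Fin 8 → ℂ → Fin 8 → ℂ}

theorem mem_RY1 {z : ℂ} (hz : z ∈ OmP) (ht : ‖yz z‖ < 1) : yz z ∈ RY 1 := by
  refine ⟨ht, ?_⟩
  rcases (show yz z ∈ OmY from hz) with h | h
  · exact Or.inl h
  · exact Or.inr h.2.1

theorem frm_c1 (hX : YD X) {z : ℂ} (hz : z ∈ OmP) (ht : ‖yz z‖ < 1) :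
    frm (Pz X z) BF0 = F0 (gl1 (TY 1 (yz z)) (yz z)) := by
  rw [frm_Pz]
  congr 1
  funext i
  exact hX.cusp 1 i (yz z) (mem_RY1 hz ht)

/-- **factorisation of the upper frame** -/
theorem up_c1 (hX : YD X) {z : ℂ} (hz : z ∈ OmP) (ht : ‖yz z‖ < 1) :
    frm (Pz X z) BF0 = (1 + TY 1 (yz z) • N1 (yz z)) * D1 (yz z) := by
  rw [frm_c1 hX hz ht]
  exact F0_gl1 _ ht

/-- **zero pattern, upper cell to disc** -/
theorem zero_up (hX : YD X) {z : ℂ} (hz : z ∈ OmP) (ht : ‖yz z‖ < 1) {b c : Fin 8}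
    (h : pat1 b c = false) : (frm (Pz X z) BF0 b ᵥ* (D1 (yz z))⁻¹) c = 0 := by
  rw [frm_c1 hX hz ht]
  exact tr_up _ ht h

/-- **zero pattern, disc to upper cell** -/
theorem zero_dn (hX : YD X) {z : ℂ} (hz : z ∈ OmP) (ht : ‖yz z‖ < 1) {b c : Fin 8}
    (h : pat1 b c = false) : (D1 (yz z) b ᵥ* (frm (Pz X z) BF0)⁻¹) c = 0 := by
  rw [frm_c1 hX hz ht]
  exact tr_dn _ ht h

/-! ### the mirror cell -/

theorem D1_cj (z : ℂ) : D1 (yz z) = cj (D1 (yz (conj z))) := by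
  funext b c
  rw [yz_conj, cj_apply, D1_conj, Complex.conj_conj]

theorem isUnit_cj {A : Matrix (Fin 8) (Fin 8) ℂ} (h : IsUnit A.det) : IsUnit (cj A).det := by
  have h1 : A * A⁻¹ = 1 := Matrix.mul_nonsing_inv _ h
  have h2 : cj A * cj A⁻¹ = 1 := by
    rw [← cj_mul, h1]
    ext i j
    rw [cj_apply, Matrix.one_apply]
    split_ifs <;> simp
  exact (Matrix.isUnit_iff_isUnit_det _).1 (IsUnit.of_mul_eq_one _ h2)

theorem cj_vm {S D : Matrix (Fin 8) (Fin 8) ℂ} (hD : IsUnit D.det) (b c : Fin 8) :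
    (cj S b ᵥ* (cj D)⁻¹) c = conj ((S b ᵥ* D⁻¹) c) := by
  have h : S = (S * D⁻¹) * D := by
    rw [Matrix.mul_assoc, Matrix.nonsing_inv_mul _ hD, mul_one]
  have h2 : cj S = cj (S * D⁻¹) * cj D := by rw [← cj_mul, ← h]
  rw [vm_inv (isUnit_cj hD) h2]
  rfl

theorem zero_up' (hX : YD X) {z : ℂ} (hz : conj z ∈ OmP) (ht : ‖yz z‖ < 1) {b c : Fin 8}
    (h : pat1 b c = false) :
    (cj (frm (Pz X (conj z)) BF0) b ᵥ* (D1 (yz z))⁻¹) c = 0 := by
  have ht' : ‖yz (conj z)‖ < 1 := by rw [yz_conj, Complex.norm_conj]; exact ht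
  rw [D1_cj, cj_vm (D1_isUnit _), zero_up hX hz ht' h, map_zero]

theorem zero_dn' (hX : YD X) {z : ℂ} (hz : conj z ∈ OmP) (ht : ‖yz z‖ < 1) {b c : Fin 8}
    (h : pat1 b c = false) :
    (D1 (yz z) b ᵥ* (cj (frm (Pz X (conj z)) BF0))⁻¹) c = 0 := by
  have ht' : ‖yz (conj z)‖ < 1 := by rw [yz_conj, Complex.norm_conj]; exact ht
  have hu : IsUnit (frm (Pz X (conj z)) BF0).det := by
    rw [frm_c1 hX hz ht']
    exact F0_isUnit _ ht'
  rw [D1_cj, cj_vm hu, zero_dn hX hz ht' h, map_zero]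

/-! ### the disc in the `S`-plane -/

/-- the disc -/
def V1 : Set ℂ := {z | ‖yz z‖ < 1}

theorem isOpen_V1 : IsOpen V1 :=
  isOpen_lt (by unfold yz; fun_prop) continuous_const

theorem D1z_diff (b c : Fin 8) : DifferentiableOn ℂ (fun z => D1 (yz z) b c) V1 := by
  refine (D1_diff b c).comp (g := fun t => D1 t b c) (f := yz) ?_ fun z hz =>
    mem_ball_zero_iff.2 hz
  unfold yz
  fun_prop

theorem D1z_unitri (z : ℂ) : Unitri (D1 (yz z)) := D1_unitri _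

theorem D1z_conj (z : ℂ) (b c : Fin 8) : D1 (yz (conj z)) b c = conj (D1 (yz z) b c) := by
  rw [yz_conj, D1_conj]

/-! ### the six group totals at `c1` in the rows of the disc frame -/

theorem tot_w1 (t : ℂ) :
    yc (tupC .w1 t + l2 • tupC .wl t + (pc ^ 2 / 16) • tupC .wy t) = D1 t 0 := rfl

theorem tot_wl (t : ℂ) : yc (tupC .wl t) = D1 t 1 := rfl

theorem tot_wab (t : ℂ) : yc (tupC .wab t) = D1 t 3 := by rw [tupC_wab, D1_3]

theorem tot_wy (t : ℂ) : yc (tupC .wy t) = (-(4 / 3 : ℂ)) • D1 t 5 := by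
  rw [tupC_wy, D1_5, ← yc_smul]
  congr 1
  module

theorem tot_w8 {t : ℂ} (ht : ‖t‖ < 1) : yc (tupC .w8 t) = evq serK t • D1 t 6 := yc_w8 ht

theorem tot_wf7 {t : ℂ} (ht : ‖t‖ < 1) : yc (tupC .wf7 t) =
    D1 t 4 + D1 t 5 - ((3 / 4) * evq serK t) • D1 t 6 := by
  rw [mul_smul, ← yc_w8 ht, tupC_wf7, D1_4, D1_5, ← yc_add, ← yc_smul, ← yc_sub]
  congr 1
  module

end

end Vale.Agent.P030.H686
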