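import Vale.Agent.P030.H686.Cusp1F
import Vale.Agent.P030.H352.DiscR

/-!
# P030, route N: cusp `c1` in the form of helper352's discs and helper991's `TopN` (helper686)

`Dz 1 z = D1 (yz z)` and the transitions between the cell `F0` and the disc `Dz 1` in both
directions (`TopN.tr`), zero outside of `pat1`.
-/

open Matrix
open scoped ComplexConjugate

namespace Vale.Agent.P030.H686

open Vale.Agent.P030.T Vale.Agent.P030.H462 Vale.Agent.P030.AR Vale.Agent.P030.H152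
open Vale.Agent.P030.H265 Vale.Agent.P030.H580 Vale.Agent.P030.H352

noncomputable section

theorem mul_Qr (M : Matrix (Fin 8) (Fin 8) ℂ) (i : Fin 8) : (M * Qr) i = colY (M i) := by
  funext j
  rw [Matrix.mul_apply, Fin.sum_univ_eight]
  fin_cases j <;> simp [Qr, colY]
  ring

theorem Ar_mul (V : Matrix (Fin 8) (Fin 8) ℂ) (i : Fin 8) :
    (Ar * V) i = rowX (fun i _ => V i) 0 i := by
  funext j
  rw [Matrix.mul_apply, Fin.sum_univ_eight]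
  fin_cases i <;> simp [Ar, rowX]

theorem adm_eq (V : Matrix (Fin 8) (Fin 8) ℂ) (z : ℂ) :
    adm Ar Qr V = Pz (fun i _ => V i) z := by
  funext i
  change (Ar * V * Qr) i = colY (rowX (fun i _ => V i) (yz z) i)
  rw [mul_Qr, Ar_mul]
  rfl

theorem BF0_eq : BF0 = BR 1 := by
  ext i j
  fin_cases i <;> fin_cases j <;> simp [BF0, BR]
  ring

/-- **the disc frame** -/
theorem Sr1_eq {t : ℂ} (ht : ‖t‖ < 1) : Sr 1 t = D1 t := by
  have h : frm (adm Ar Qr (glc 1 0 t)) (BR 1) = F0 (gl1 0 t) := by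
    have e := congrArg (fun P => frm P (BR 1)) (adm_eq (glc 1 0 t) 0)
    refine e.trans ?_
    beta_reduce
    rw [← BF0_eq]
    exact frm_Pz (fun i _ => gl1 0 t i) 0
  change frm (adm Ar Qr (glc 1 0 t)) (BR 1) = D1 t
  rw [h, F0_gl1 0 ht, zero_smul, add_zero, one_mul]

theorem mem_Ud1 {z : ℂ} : z ∈ Ud 1 ↔ ‖yz z‖ < 1 := Iff.rfl

theorem Dz1_eq {z : ℂ} (hz : z ∈ Ud 1) : Dz 1 z = D1 (yz z) := Sr1_eq hz

variable {X : Fin 8 → ℂ → Fin 8 → ℂ}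

/-- **cell to disc** -/
theorem c1_up (hX : YD X) {z : ℂ} (hz : z ∈ OmP) (hd : z ∈ Ud 1) {b b' : Fin 8}
    (h : pat1 b b' = false) : (frm (Pz X z) (BR 1) b ᵥ* (Dz 1 z)⁻¹) b' = 0 := by
  rw [Dz1_eq hd, ← BF0_eq]
  exact zero_up hX hz hd h

/-- **disc to cell** -/
theorem c1_dn (hX : YD X) {z : ℂ} (hz : z ∈ OmP) (hd : z ∈ Ud 1) {b b' : Fin 8}
    (h : pat1 b b' = false) : (Dz 1 z b ᵥ* (frm (Pz X z) (BR 1))⁻¹) b' = 0 := by
  rw [Dz1_eq hd, ← BF0_eq]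
  exact zero_dn hX hz hd h

theorem c1_up_tr (hX : YD X) {z : ℂ} (hz : z ∈ OmP) (hd : z ∈ Ud 1) {b b' : Fin 8}
    (h : ¬ (pat1 b b' = true)) : TopN.tr (frm (Pz X z) (BR 1)) (Dz 1 z) b b' = 0 :=
  c1_up hX hz hd (by simpa using h)

theorem c1_dn_tr (hX : YD X) {z : ℂ} (hz : z ∈ OmP) (hd : z ∈ Ud 1) {b b' : Fin 8}
    (h : ¬ (pat1 b b' = true)) : TopN.tr (Dz 1 z) (frm (Pz X z) (BR 1)) b b' = 0 :=
  c1_dn hX hz hd (by simpa using h)

/-! ### the totals in the rows of `Dz 1` -/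

theorem tot_w1' {z : ℂ} (hd : z ∈ Ud 1) : colY (tupC .w1 (yz z) + l2 • tupC .wl (yz z) +
    (pc ^ 2 / 16) • tupC .wy (yz z)) = Dz 1 z 0 := by rw [Dz1_eq hd]; exact tot_w1 _

theorem tot_wl' {z : ℂ} (hd : z ∈ Ud 1) : colY (tupC .wl (yz z)) = Dz 1 z 1 := by
  rw [Dz1_eq hd]; exact tot_wl _

theorem tot_wab' {z : ℂ} (hd : z ∈ Ud 1) : colY (tupC .wab (yz z)) = Dz 1 z 3 := by
  rw [Dz1_eq hd]; exact tot_wab _

theorem tot_wy' {z : ℂ} (hd : z ∈ Ud 1) :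
    colY (tupC .wy (yz z)) = (-(4 / 3 : ℂ)) • Dz 1 z 5 := by
  rw [Dz1_eq hd]; exact tot_wy _

theorem tot_w8' {z : ℂ} (hd : z ∈ Ud 1) :
    colY (tupC .w8 (yz z)) = evq serK (yz z) • Dz 1 z 6 := by
  rw [Dz1_eq hd]; exact tot_w8 hd

theorem tot_wf7' {z : ℂ} (hd : z ∈ Ud 1) : colY (tupC .wf7 (yz z)) =
    Dz 1 z 4 + Dz 1 z 5 - ((3 / 4) * evq serK (yz z)) • Dz 1 z 6 := by
  rw [Dz1_eq hd]; exact tot_wf7 hd

end

end Vale.Agent.P030.H686
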