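import Vale.Agent.P030.AR.Flat
import Vale.Agent.P030.H181.KNz
import Vale.Agent.P030.H181.GFrames
import Vale.Agent.P030.H152.CellNorm
import Vale.Agent.P030.H265.FrameAlg
import Vale.Agent.P030.H580.Vgl

/-!
# P030, route N: the cusp disc at `c1` (helper686)

`D1 t` : the disc frame (log-free parts of the rows of `F0`), in the coordinates
`x0, x1, x2, x3 - x4, x5, x4, x6, x7`;  `F0 v` : the flat frame of the cell next to the cusp from the
eight flat vectors `v`;  `F0 (gl1 T t) = (1 + T • N1 t) * D1 t`.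
-/

open Matrix

namespace Vale.Agent.P030.H686

open Vale.Agent.P030.T Vale.Agent.P030.H462 Vale.Agent.P030.AR Vale.Agent.P030.H152

noncomputable section

/-- coordinates adapted to the levels -/
def yc (x : Fin 8 → ℂ) : Fin 8 → ℂ := ![x 0, x 1, x 2, x 3 - x 4, x 5, x 4, x 6, x 7]

/-- the disc frame at `c1` -/
def D1 (t : ℂ) : Matrix (Fin 8) (Fin 8) ℂ :=
  ![yc (tupC .w1 t + l2 • tupC .wl t + (pc ^ 2 / 16) • tupC .wy t),
    yc (tupC .wl t),
    yc (evt wL0 t + (l2 / 2) • (gv - hv)),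
    yc dv,
    yc (hv - dv - gv),
    yc (dv + gv + (3 / 4 : ℂ) • tupC .w8 t),
    Pi.single 6 1 + (evq (tw serK) t / evq serK t) • Pi.single 7 1,
    Pi.single 7 1]

/-- the flat frame next to `c1` -/
def F0 (v : Fin 8 → Fin 8 → ℂ) : Matrix (Fin 8) (Fin 8) ℂ :=
  ![yc (v 0),
    yc (v 1 - v 2 + (Complex.I * pc) • v 3 + (l2 / 2) • (v 4 - v 5)),
    yc (v 2 - (Complex.I * pc) • v 3 - (l2 / 2) • (v 4 - v 5)),
    yc (v 3),
    yc (v 5 - v 3 - v 4),
    yc (v 3 + v 4 + (3 * Complex.I / (2 * pc)) • v 6 + (3 / (4 * pc)) • v 7),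
    Pi.single 6 1 + ((2 * Complex.I * v 6 7 + v 7 7) / (2 * Complex.I * v 6 6 + v 7 6)) •
      Pi.single 7 1,
    Pi.single 7 1]

/-- the nilpotent part -/
def N1 (t : ℂ) : Matrix (Fin 8) (Fin 8) ℂ :=
  ![0, 0, ![0, 0, 0, -1, 0, 1, -(3 / 4) * evq serK t, 0], 0, 0, 0, 0, 0]

theorem evq_serK_ne {t : ℂ} (ht : ‖t‖ < 1) : evq serK t ≠ 0 := by
  rw [← H181.kC_eq ht]
  exact H181.kC_ne (H181.ball_sub_cutK (mem_ball_zero_iff.2 ht))

theorem tupC_w8_6 (t : ℂ) : tupC .w8 t 6 = evq serK t := by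
  simp [tupC, tup0, tup1, evq_zero]

theorem tupC_w8_7 (t : ℂ) : tupC .w8 t 7 = evq (tw serK) t := by
  simp [tupC, tup0, tup1, evq_zero]

theorem tupC_w8_lt (t : ℂ) {j : Fin 8} (hj : j < 6) : tupC .w8 t j = 0 := by
  fin_cases j <;> first
    | (simp [tupC, tup0, tup1, evq_zero]; done)
    | exact absurd hj (by decide)

theorem K_sum (T t : ℂ) (j : Fin 8) :
    2 * Complex.I * gl1 T t 6 j + gl1 T t 7 j = pc * tupC .w8 t j := by
  simp [gl1]

theorem F0_0 (v : Fin 8 → Fin 8 → ℂ) : F0 v 0 = yc (v 0) := rfl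
theorem F0_1 (v : Fin 8 → Fin 8 → ℂ) : F0 v 1 =
    yc (v 1 - v 2 + (Complex.I * pc) • v 3 + (l2 / 2) • (v 4 - v 5)) := rfl
theorem F0_2 (v : Fin 8 → Fin 8 → ℂ) : F0 v 2 =
    yc (v 2 - (Complex.I * pc) • v 3 - (l2 / 2) • (v 4 - v 5)) := rfl
theorem F0_3 (v : Fin 8 → Fin 8 → ℂ) : F0 v 3 = yc (v 3) := rfl
theorem F0_4 (v : Fin 8 → Fin 8 → ℂ) : F0 v 4 = yc (v 5 - v 3 - v 4) := rfl
theorem F0_5 (v : Fin 8 → Fin 8 → ℂ) : F0 v 5 =
    yc (v 3 + v 4 + (3 * Complex.I / (2 * pc)) • v 6 + (3 / (4 * pc)) • v 7) := rfl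
theorem F0_6 (v : Fin 8 → Fin 8 → ℂ) : F0 v 6 = Pi.single 6 1 +
    ((2 * Complex.I * v 6 7 + v 7 7) / (2 * Complex.I * v 6 6 + v 7 6)) • Pi.single 7 1 := rfl
theorem F0_7 (v : Fin 8 → Fin 8 → ℂ) : F0 v 7 = Pi.single 7 1 := rfl

theorem D1_0 (t : ℂ) : D1 t 0 =
    yc (tupC .w1 t + l2 • tupC .wl t + (pc ^ 2 / 16) • tupC .wy t) := rfl
theorem D1_1 (t : ℂ) : D1 t 1 = yc (tupC .wl t) := rfl
theorem D1_2 (t : ℂ) : D1 t 2 = yc (evt wL0 t + (l2 / 2) • (gv - hv)) := rfl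
theorem D1_3 (t : ℂ) : D1 t 3 = yc dv := rfl
theorem D1_4 (t : ℂ) : D1 t 4 = yc (hv - dv - gv) := rfl
theorem D1_5 (t : ℂ) : D1 t 5 = yc (dv + gv + (3 / 4 : ℂ) • tupC .w8 t) := rfl
theorem D1_6 (t : ℂ) : D1 t 6 =
    Pi.single 6 1 + (evq (tw serK) t / evq serK t) • Pi.single 7 1 := rfl
theorem D1_7 (t : ℂ) : D1 t 7 = Pi.single 7 1 := rfl

theorem gl1_0 (T t : ℂ) : gl1 T t 0 =
    tupC .w1 t + l2 • tupC .wl t + (pc ^ 2 / 16) • tupC .wy t := rfl
theorem gl1_1 (T t : ℂ) : gl1 T t 1 = tupC .wl t + wLv T t + (l2 / 2) • (gv - hv) := rfl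
theorem gl1_2 (T t : ℂ) : gl1 T t 2 =
    wLv T t + (Complex.I * pc) • dv + l2 • (gv - hv) := rfl
theorem gl1_3 (T t : ℂ) : gl1 T t 3 = dv := rfl
theorem gl1_4 (T t : ℂ) : gl1 T t 4 = gv := rfl
theorem gl1_5 (T t : ℂ) : gl1 T t 5 = hv := rfl
theorem gl1_6 (T t : ℂ) : gl1 T t 6 = (2 * l2) • tupC .w8 t - wMv T t := rfl
theorem gl1_7 (T t : ℂ) : gl1 T t 7 =
    pc • tupC .w8 t - (2 * Complex.I) • ((2 * l2) • tupC .w8 t - wMv T t) := rfl

theorem F0_row0 (T t : ℂ) : F0 (gl1 T t) 0 = D1 t 0 := by rw [F0_0, D1_0, gl1_0]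

theorem F0_row1 (T t : ℂ) : F0 (gl1 T t) 1 = D1 t 1 := by
  rw [F0_1, D1_1, gl1_1, gl1_2, gl1_3, gl1_4, gl1_5]
  congr 1
  module

theorem F0_row3 (T t : ℂ) : F0 (gl1 T t) 3 = D1 t 3 := by rw [F0_3, D1_3, gl1_3]

theorem F0_row4 (T t : ℂ) : F0 (gl1 T t) 4 = D1 t 4 := by rw [F0_4, D1_4, gl1_3, gl1_4, gl1_5]

theorem F0_row5 (T t : ℂ) : F0 (gl1 T t) 5 = D1 t 5 := by
  rw [F0_5, D1_5, gl1_3, gl1_4, gl1_6, gl1_7]
  have hp := pc_ne
  congr 1
  match_scalars <;> field_simp <;> ring1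

theorem F0_row6 (T : ℂ) {t : ℂ} : F0 (gl1 T t) 6 = D1 t 6 := by
  rw [F0_6, D1_6, K_sum, K_sum, tupC_w8_6, tupC_w8_7, mul_div_mul_left _ _ pc_ne]

theorem F0_row7 (T t : ℂ) : F0 (gl1 T t) 7 = D1 t 7 := by rw [F0_7, D1_7]

theorem yc_add (x y : Fin 8 → ℂ) : yc (x + y) = yc x + yc y := by
  funext j
  fin_cases j <;> simp [yc] <;> ring

theorem yc_smul (a : ℂ) (x : Fin 8 → ℂ) : yc (a • x) = a • yc x := by
  funext j
  fin_cases j <;> simp [yc] <;> ring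

theorem yc_neg (x : Fin 8 → ℂ) : yc (-x) = -yc x := by
  funext j
  fin_cases j <;> simp [yc] <;> ring

theorem yc_sub (x y : Fin 8 → ℂ) : yc (x - y) = yc x - yc y := by
  rw [sub_eq_add_neg, yc_add, yc_neg, ← sub_eq_add_neg]

theorem yc_w8 {t : ℂ} (ht : ‖t‖ < 1) : yc (tupC .w8 t) = evq serK t • D1 t 6 := by
  have hK := evq_serK_ne ht
  rw [D1_6]
  funext j
  fin_cases j <;> simp [yc, tupC_w8_6, tupC_w8_7, tupC_w8_lt, Pi.single_apply]
  field_simp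

theorem F0_row2 (T : ℂ) {t : ℂ} (ht : ‖t‖ < 1) :
    F0 (gl1 T t) 2 = D1 t 2 + T • (-D1 t 3 + D1 t 5 - ((3 / 4) * evq serK t) • D1 t 6) := by
  rw [mul_smul, ← yc_w8 ht, F0_2, D1_2, D1_3, D1_5, gl1_2, gl1_3, gl1_4, gl1_5, wLv, ← yc_smul,
    ← yc_neg, ← yc_add, ← yc_sub, ← yc_smul, ← yc_add]
  congr 1
  module

theorem N1_row (t : ℂ) {b : Fin 8} (hb : b ≠ 2) : N1 t b = 0 := by
  fin_cases b <;> first | rfl | exact absurd rfl hb

theorem F0_row (T t : ℂ) {b : Fin 8} (hb : b ≠ 2) : F0 (gl1 T t) b = D1 t b := by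
  fin_cases b
  · exact F0_row0 T t
  · exact F0_row1 T t
  · exact absurd rfl hb
  · exact F0_row3 T t
  · exact F0_row4 T t
  · exact F0_row5 T t
  · exact F0_row6 T
  · exact F0_row7 T t

theorem N1_two (t : ℂ) : N1 t 2 ᵥ* D1 t =
    -D1 t 3 + D1 t 5 - ((3 / 4) * evq serK t) • D1 t 6 := by
  funext j
  have h : N1 t 2 = ![0, 0, 0, -1, 0, 1, -(3 / 4) * evq serK t, 0] := rfl
  rw [h]
  change ∑ i, (![0, 0, 0, -1, 0, 1, -(3 / 4) * evq serK t, 0] : Fin 8 → ℂ) i * D1 t i j = _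
  rw [Fin.sum_univ_eight]
  simp only [Matrix.cons_val, Pi.add_apply, Pi.sub_apply, Pi.neg_apply, Pi.smul_apply,
    smul_eq_mul]
  ring

/-- **the flat frame in the disc frame** -/
theorem F0_gl1 (T : ℂ) {t : ℂ} (ht : ‖t‖ < 1) : F0 (gl1 T t) = (1 + T • N1 t) * D1 t := by
  have h : ∀ b, F0 (gl1 T t) b = D1 t b + T • (N1 t b ᵥ* D1 t) := by
    intro b
    by_cases hb : b = 2
    · subst hb
      rw [F0_row2 T ht, N1_two]
    · rw [F0_row T t hb, N1_row t hb, zero_vecMul, smul_zero, add_zero]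
  funext b
  rw [h b, add_mul, one_mul, smul_mul_assoc]
  rfl

theorem N1_sq (t : ℂ) : N1 t * N1 t = 0 := by
  funext b
  rw [Matrix.mul_apply_eq_vecMul]
  by_cases hb : b = 2
  · subst hb
    funext j
    change ∑ i, N1 t 2 i * N1 t i j = 0
    refine Finset.sum_eq_zero fun i _ => ?_
    by_cases hi : i = 2
    · subst hi
      have : N1 t 2 2 = 0 := rfl
      rw [this, zero_mul]
    · rw [N1_row t hi, Pi.zero_apply, mul_zero]
  · rw [N1_row t hb, zero_vecMul]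
    rfl

/-- **the disc frame in the flat frame** -/
theorem D1_eq (T : ℂ) {t : ℂ} (ht : ‖t‖ < 1) : D1 t = (1 - T • N1 t) * F0 (gl1 T t) := by
  rw [F0_gl1 T ht, ← Matrix.mul_assoc]
  have h : (1 - T • N1 t) * (1 + T • N1 t) = 1 := by
    rw [sub_mul, mul_add, mul_add, smul_mul_smul_comm, N1_sq]
    simp
  rw [h, one_mul]

/-- the pattern of the cusp `c1` -/
def pat1 (b c : Fin 8) : Bool := b = c || (b = 2 && (c = 3 || c = 5 || c = 6))

theorem pat_N1 (a : ℂ) (t : ℂ) {b c : Fin 8} (h : pat1 b c = false) : (1 + a • N1 t) b c = 0 := by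
  have hbc : b ≠ c := by
    rintro rfl
    simp [pat1] at h
  rw [Matrix.add_apply, Matrix.one_apply_ne hbc, Matrix.smul_apply, zero_add]
  by_cases hb : b = 2
  · subst hb
    have : N1 t 2 c = 0 := by
      fin_cases c <;> first | rfl | (simp [pat1] at h)
    rw [this, smul_zero]
  · rw [N1_row t hb, Pi.zero_apply, smul_zero]

/-! ### the disc frame -/

theorem D1_unitri (t : ℂ) : Unitri (D1 t) := by
  constructor
  · intro b c hc
    fin_cases b <;> fin_cases c <;> first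
      | exact absurd hc (by decide)
      | (simp [D1_0, D1_1, D1_2, D1_3, D1_4, D1_5, D1_6, D1_7, yc, tupC, tup0, tup1, evt, wL0, dv, gv, hv,
          evq_zero, evq_one]; done)
  · intro b
    fin_cases b <;>
      simp [D1_0, D1_1, D1_2, D1_3, D1_4, D1_5, D1_6, D1_7, yc, tupC, tup0, tup1, evt, wL0, dv, gv, hv,
          evq_zero, evq_one]

theorem D1_isUnit (t : ℂ) : IsUnit (D1 t).det := (D1_unitri t).isUnit

theorem diff_yc {f : ℂ → Fin 8 → ℂ} {S : Set ℂ}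
    (hf : ∀ j, DifferentiableOn ℂ (fun t => f t j) S) (j : Fin 8) :
    DifferentiableOn ℂ (fun t => yc (f t) j) S := by
  fin_cases j
  · exact hf 0
  · exact hf 1
  · exact hf 2
  · exact (hf 3).sub (hf 4)
  · exact hf 5
  · exact hf 4
  · exact hf 6
  · exact hf 7

open H787 in
theorem D1_diff (b c : Fin 8) : DifferentiableOn ℂ (fun t => D1 t b c) (Metric.ball 0 1) := by
  have hc : ∀ v : Fin 8 → ℂ, ∀ j, DifferentiableOn ℂ (fun _ : ℂ => v j) (Metric.ball 0 1) :=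
    fun v j => differentiableOn_const _
  have ht : ∀ g j, DifferentiableOn ℂ (fun t => tupC g t j) (Metric.ball 0 1) := diff_tupC
  fin_cases b
  · exact diff_yc (fun j => ((ht .w1 j).add ((ht .wl j).const_mul l2)).add
      ((ht .wy j).const_mul (pc ^ 2 / 16))) c
  · exact diff_yc (ht .wl) c
  · exact diff_yc (fun j => (diff_evt pg_wL0 j).add (hc ((l2 / 2) • (gv - hv)) j)) c
  · exact hc (yc dv) c
  · exact hc (yc (hv - dv - gv)) c
  · exact diff_yc (fun j => (hc (dv + gv) j).add ((ht .w8 j).const_mul (3 / 4))) c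
  · refine DifferentiableOn.add (hc (Pi.single 6 1) c) (DifferentiableOn.mul ?_
      (hc (Pi.single 7 1) c))
    exact (diff_evq (pr_tw pg_serK)).div (diff_evq pg_serK) fun t ht =>
      evq_serK_ne (mem_ball_zero_iff.1 ht)
  · exact hc (Pi.single 7 1) c

theorem conj_yc (x : Fin 8 → ℂ) (j : Fin 8) :
    yc (fun i => (starRingEnd ℂ) (x i)) j = (starRingEnd ℂ) (yc x j) := by
  fin_cases j <;> simp [yc]

open H787 in
/-- the disc frame is real -/
theorem D1_conj (t : ℂ) (b c : Fin 8) :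
    D1 ((starRingEnd ℂ) t) b c = (starRingEnd ℂ) (D1 t b c) := by
  have hd : ∀ j, (starRingEnd ℂ) (dv j) = dv j := fun j => by
    simp only [dv, Pi.single_apply]; split_ifs <;> simp
  have hg : ∀ j, (starRingEnd ℂ) (gv j) = gv j := fun j => by
    simp only [gv, Pi.single_apply]; split_ifs <;> simp
  have hh : ∀ j, (starRingEnd ℂ) (hv j) = hv j := fun j => by
    simp only [hv, Pi.single_apply]; split_ifs <;> simp
  have key : ∀ x y : Fin 8 → ℂ, (∀ j, x j = (starRingEnd ℂ) (y j)) →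
      yc x c = (starRingEnd ℂ) (yc y c) := by
    intro x y h
    rw [← conj_yc, funext h]
  fin_cases b
  · refine key _ _ fun j => ?_
    simp only [Pi.add_apply, Pi.smul_apply, smul_eq_mul, conj_tupC, map_add, map_mul, map_div₀,
      map_pow, conj_l2, conj_pc, map_ofNat]
  · exact key _ _ fun j => conj_tupC _ _ _
  · refine key _ _ fun j => ?_
    simp only [Pi.add_apply, Pi.sub_apply, Pi.smul_apply, smul_eq_mul, conj_evt, map_add, map_mul,
      map_div₀, map_sub, conj_l2, map_ofNat, hg, hh]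
  · exact key _ _ fun j => (hd j).symm
  · refine key _ _ fun j => ?_
    simp only [Pi.sub_apply, map_sub, hh, hd, hg]
  · refine key _ _ fun j => ?_
    simp only [Pi.add_apply, Pi.smul_apply, smul_eq_mul, conj_tupC, map_add, map_mul, map_div₀,
      hd, hg, map_ofNat]
  · change (Pi.single 6 1 : Fin 8 → ℂ) c + _ * (Pi.single 7 1 : Fin 8 → ℂ) c =
      (starRingEnd ℂ) ((Pi.single 6 1 : Fin 8 → ℂ) c + _ * (Pi.single 7 1 : Fin 8 → ℂ) c)
    rw [conj_evq, conj_evq, map_add, map_mul, map_div₀]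
    simp only [Pi.single_apply]
    split_ifs <;> simp
  · change (Pi.single 7 1 : Fin 8 → ℂ) c = (starRingEnd ℂ) ((Pi.single 7 1 : Fin 8 → ℂ) c)
    simp only [Pi.single_apply]
    split_ifs <;> simp

/-! ### transitions -/

/-- the transition matrix read off from a factorisation -/
theorem vm_inv {S D M : Matrix (Fin 8) (Fin 8) ℂ} (hD : IsUnit D.det) (h : S = M * D)
    (b c : Fin 8) : (S b ᵥ* D⁻¹) c = M b c := by
  have h1 : S * D⁻¹ = M := by rw [h, Matrix.mul_assoc, Matrix.mul_nonsing_inv _ hD, mul_one]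
  rw [← h1]
  rfl

theorem one_add_mul_one_sub (a : ℂ) (t : ℂ) : (1 + a • N1 t) * (1 - a • N1 t) = 1 := by
  rw [mul_sub, add_mul, add_mul, smul_mul_smul_comm, N1_sq]
  simp

theorem F0_isUnit (T : ℂ) {t : ℂ} (ht : ‖t‖ < 1) : IsUnit (F0 (gl1 T t)).det := by
  rw [F0_gl1 T ht, Matrix.det_mul]
  refine IsUnit.mul ?_ (D1_isUnit t)
  exact (Matrix.isUnit_iff_isUnit_det _).1 (IsUnit.of_mul_eq_one _ (one_add_mul_one_sub T t))

theorem tr_up (T : ℂ) {t : ℂ} (ht : ‖t‖ < 1) {b c : Fin 8} (h : pat1 b c = false) :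
    (F0 (gl1 T t) b ᵥ* (D1 t)⁻¹) c = 0 := by
  rw [vm_inv (D1_isUnit t) (F0_gl1 T ht), pat_N1 T t h]

theorem tr_dn (T : ℂ) {t : ℂ} (ht : ‖t‖ < 1) {b c : Fin 8} (h : pat1 b c = false) :
    (D1 t b ᵥ* (F0 (gl1 T t))⁻¹) c = 0 := by
  rw [vm_inv (F0_isUnit T ht) (D1_eq T ht), sub_eq_add_neg, ← neg_smul, pat_N1 _ t h]

end

end Vale.Agent.P030.H686
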